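import Mathlib

set_option autoImplicit false

namespace Crest.Agent.S0326Aux

/-- Staircase covering lemma: the unit squares placed at the points of the lattice generated by
`(1, t)` and `(τ, 1)` cover the plane as soon as `0 ≤ t τ < 1`. -/
theorem lattice_cover (t τ : ℝ) (h0 : 0 ≤ t * τ) (h1 : t * τ < 1) (X Y : ℝ) :
    ∃ j k : ℤ, (0 ≤ X - (j + τ * k) ∧ X - (j + τ * k) ≤ 1) ∧
      (0 ≤ Y - (k + t * j) ∧ Y - (k + t * j) ≤ 1) := by
  set jj : ℤ → ℤ := fun k => ⌊X - τ * k⌋ with hjj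
  set st : ℤ → ℝ := fun k => k + t * jj k with hst
  have hd : 0 < 1 - t * τ := by linarith
  -- bounds on `jj`
  have hj1 : ∀ k : ℤ, (jj k : ℝ) ≤ X - τ * k := fun k => Int.floor_le _
  have hj2 : ∀ k : ℤ, X - τ * k < jj k + 1 := fun k => Int.lt_floor_add_one _
  -- two-sided bound on `st`
  have hlow : ∀ k : ℤ, (k : ℝ) * (1 - t * τ) + t * X - |t| ≤ st k := by
    intro k
    have h3 : t * (X - τ * k) - |t| ≤ t * jj k := by
      rcases le_total 0 t with ht | ht
      · rw [abs_of_nonneg ht]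
        have := hj2 k
        nlinarith
      · rw [abs_of_nonpos ht]
        have := hj1 k
        nlinarith
    simp only [hst]
    nlinarith
  have hup : ∀ k : ℤ, st k ≤ (k : ℝ) * (1 - t * τ) + t * X + |t| := by
    intro k
    have h3 : t * jj k ≤ t * (X - τ * k) + |t| := by
      rcases le_total 0 t with ht | ht
      · rw [abs_of_nonneg ht]
        have := hj1 k
        nlinarith
      · rw [abs_of_nonpos ht]
        have := hj2 k
        nlinarith
    simp only [hst]
    nlinarith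
  -- step bound
  have hstep : ∀ k : ℤ, st (k + 1) ≤ st k + 1 := by
    intro k
    have key : t * ((jj (k + 1) : ℝ) - jj k) ≤ 0 := by
      rcases lt_trichotomy τ 0 with hτ | hτ | hτ
      · have ht : t ≤ 0 := by
          by_contra hc
          push Not at hc
          nlinarith
        have hmono : jj k ≤ jj (k + 1) := by
          apply Int.floor_le_floor
          push_cast
          nlinarith
        have : (jj k : ℝ) ≤ jj (k + 1) := by exact_mod_cast hmono
        nlinarith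
      · have : jj (k + 1) = jj k := by simp [hjj, hτ]
        rw [this]; simp
      · have ht : 0 ≤ t := by
          by_contra hc
          push Not at hc
          nlinarith
        have hmono : jj (k + 1) ≤ jj k := by
          apply Int.floor_le_floor
          push_cast
          nlinarith
        have : (jj (k + 1) : ℝ) ≤ jj k := by exact_mod_cast hmono
        nlinarith
    simp only [hst]
    push_cast
    nlinarith
  -- the greatest `k` with `st k ≤ Y`
  have hex : ∃ k : ℤ, st k ≤ Y := by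
    refine ⟨⌊(Y - t * X - |t|) / (1 - t * τ)⌋, ?_⟩
    refine (hup _).trans ?_
    have := Int.floor_le ((Y - t * X - |t|) / (1 - t * τ))
    rw [le_div_iff₀ hd] at this
    linarith
  have hbd : ∃ b : ℤ, ∀ k : ℤ, st k ≤ Y → k ≤ b := by
    refine ⟨⌈(Y - t * X + |t|) / (1 - t * τ)⌉, ?_⟩
    intro k hk
    have h4 : (k : ℝ) * (1 - t * τ) ≤ Y - t * X + |t| := by
      have := hlow k
      linarith
    have h5 : (k : ℝ) ≤ (Y - t * X + |t|) / (1 - t * τ) := by
      rw [le_div_iff₀ hd]; exact h4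
    have h6 := Int.le_ceil ((Y - t * X + |t|) / (1 - t * τ))
    exact_mod_cast h5.trans h6
  obtain ⟨k, hk, hmax⟩ := Int.exists_greatest_of_bdd (P := fun k => st k ≤ Y) hbd hex
  have hk1 : Y < st (k + 1) := by
    by_contra hc
    push Not at hc
    have := hmax (k + 1) hc
    omega
  refine ⟨jj k, k, ⟨?_, ?_⟩, ?_, ?_⟩
  · have := hj1 k; linarith
  · have := hj2 k; linarith
  · have : st k = k + t * jj k := rfl
    linarith
  · have : st k = k + t * jj k := rfl
    have := hstep k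
    linarith

/-- Localisation: solving the 2×2 system. -/
theorem lattice_local (t τ c₀ B u v f₁ f₂ : ℝ) (hc₀ : 0 < c₀) (h1 : c₀ ≤ 1 - t * τ)
    (ht : |t| ≤ B) (hτ : |τ| ≤ B)
    (hf₁ : 0 ≤ f₁ ∧ f₁ ≤ 1) (hf₂ : 0 ≤ f₂ ∧ f₂ ≤ 1)
    (hu : u + τ * v = f₁) (hv : v + t * u = f₂) :
    |u| ≤ (1 + B) / c₀ ∧ |v| ≤ (1 + B) / c₀ := by
  have hB : 0 ≤ B := (abs_nonneg t).trans ht
  have hu' : u * (1 - t * τ) = f₁ - τ * f₂ := by rw [← hu, ← hv]; ring
  have hv' : v * (1 - t * τ) = f₂ - t * f₁ := by rw [← hu, ← hv]; ring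
  have e1 : |f₁ - τ * f₂| ≤ 1 + B := by
    have h2 : |τ * f₂| ≤ B := by
      rw [abs_mul, abs_of_nonneg hf₂.1]
      calc |τ| * f₂ ≤ B * 1 := mul_le_mul hτ hf₂.2 hf₂.1 hB
        _ = B := mul_one B
    calc |f₁ - τ * f₂| ≤ |f₁| + |τ * f₂| := abs_sub _ _
      _ ≤ 1 + B := by rw [abs_of_nonneg hf₁.1]; linarith [hf₁.2]
  have e2 : |f₂ - t * f₁| ≤ 1 + B := by
    have h2 : |t * f₁| ≤ B := by
      rw [abs_mul, abs_of_nonneg hf₁.1]
      calc |t| * f₁ ≤ B * 1 := mul_le_mul ht hf₁.2 hf₁.1 hB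
        _ = B := mul_one B
    calc |f₂ - t * f₁| ≤ |f₂| + |t * f₁| := abs_sub _ _
      _ ≤ 1 + B := by rw [abs_of_nonneg hf₂.1]; linarith [hf₂.2]
  have hpos : 0 < 1 - t * τ := lt_of_lt_of_le hc₀ h1
  constructor
  · rw [le_div_iff₀ hc₀]
    calc |u| * c₀ ≤ |u| * (1 - t * τ) := mul_le_mul_of_nonneg_left h1 (abs_nonneg u)
      _ = |u * (1 - t * τ)| := by rw [abs_mul, abs_of_pos hpos]
      _ ≤ 1 + B := by rw [hu']; exact e1
  · rw [le_div_iff₀ hc₀]
    calc |v| * c₀ ≤ |v| * (1 - t * τ) := mul_le_mul_of_nonneg_left h1 (abs_nonneg v)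
      _ = |v * (1 - t * τ)| := by rw [abs_mul, abs_of_pos hpos]
      _ ≤ 1 + B := by rw [hv']; exact e2

end Crest.Agent.S0326Aux
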