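import Mathlib
import Crest.Agent.S0326Aux.Lattice

set_option autoImplicit false
open scoped RealInnerProductSpace

namespace Crest.Agent.S0326Aux

abbrev E2 := EuclideanSpace ℝ (Fin 2)

theorem trace_eq (M : E2 →L[ℝ] E2) : LinearMap.trace ℝ _ M.toLinearMap =
    (M (EuclideanSpace.single 0 1)) 0 + (M (EuclideanSpace.single 1 1)) 1 := by
  rw [LinearMap.trace_eq_matrix_trace ℝ (EuclideanSpace.basisFun (Fin 2) ℝ).toBasis]
  simp [Matrix.trace_fin_two, LinearMap.toMatrix_apply]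

theorem det_eq (M : E2 →L[ℝ] E2) : LinearMap.det M.toLinearMap =
    (M (EuclideanSpace.single 0 1)) 0 * (M (EuclideanSpace.single 1 1)) 1 -
      (M (EuclideanSpace.single 1 1)) 0 * (M (EuclideanSpace.single 0 1)) 1 := by
  rw [← LinearMap.det_toMatrix (EuclideanSpace.basisFun (Fin 2) ℝ).toBasis, Matrix.det_fin_two]
  simp [LinearMap.toMatrix_apply]

theorem exists_onb (a b : E2) (ha : ‖a‖ = 1) (hb : ‖b‖ = 1) (hab : ⟪a, b⟫ = 0) :
    ∃ 𝔟 : OrthonormalBasis (Fin 2) ℝ E2, 𝔟 0 = a ∧ 𝔟 1 = b := by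
  have hon : Orthonormal ℝ ![a, b] := by
    rw [orthonormal_iff_ite]
    intro i j
    fin_cases i <;> fin_cases j <;> simp [ha, hb, hab, real_inner_comm]
  obtain ⟨𝔟, h𝔟⟩ := Orthonormal.exists_orthonormalBasis_extension_of_card_eq (𝕜 := ℝ) (E := E2)
    (ι := Fin 2) (by simp) (v := ![a,b]) (s := Set.univ) (hon.comp _ Subtype.val_injective)
  exact ⟨𝔟, by simpa using h𝔟 0 (Set.mem_univ _), by simpa using h𝔟 1 (Set.mem_univ _)⟩

/-- A trace-free endomorphism of the plane has zero diagonal in a suitable orthonormal frame. -/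
theorem exists_frame (M : E2 →L[ℝ] E2) (htr : LinearMap.trace ℝ _ M.toLinearMap = 0) :
    ∃ (𝔟 : OrthonormalBasis (Fin 2) ℝ E2) (β γ : ℝ), M (𝔟 0) = γ • 𝔟 1 ∧ M (𝔟 1) = β • 𝔟 0 ∧
      LinearMap.det M.toLinearMap = -(β * γ) := by
  rw [trace_eq] at htr
  rw [det_eq]
  set e0 : E2 := EuclideanSpace.single 0 1 with he0
  set e1 : E2 := EuclideanSpace.single 1 1 with he1
  set m00 := (M e0) 0 with h00
  set m10 := (M e0) 1 with h10
  set m01 := (M e1) 0 with h01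
  set m11 := (M e1) 1 with h11
  -- find the angle
  obtain ⟨θ, hθ⟩ : ∃ θ : ℝ, m00 * Real.cos θ ^ 2 + (m01 + m10) * (Real.cos θ * Real.sin θ)
      + m11 * Real.sin θ ^ 2 = 0 := by
    have hc : Continuous fun θ : ℝ => m00 * Real.cos θ ^ 2 + (m01 + m10) * (Real.cos θ * Real.sin θ)
      + m11 * Real.sin θ ^ 2 := by fun_prop
    have h1 : (fun θ : ℝ => m00 * Real.cos θ ^ 2 + (m01 + m10) * (Real.cos θ * Real.sin θ)
      + m11 * Real.sin θ ^ 2) 0 = m00 := by simp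
    have h2 : (fun θ : ℝ => m00 * Real.cos θ ^ 2 + (m01 + m10) * (Real.cos θ * Real.sin θ)
      + m11 * Real.sin θ ^ 2) (Real.pi / 2) = m11 := by simp
    rcases le_total m00 0 with h | h
    · exact mem_range_of_exists_le_of_exists_ge hc ⟨0, h1.le.trans h⟩
        ⟨Real.pi / 2, le_trans (by linarith) h2.ge⟩
    · exact mem_range_of_exists_le_of_exists_ge hc ⟨Real.pi / 2, h2.le.trans (by linarith)⟩
        ⟨0, h.trans h1.ge⟩
  set c := Real.cos θ with hc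
  set s := Real.sin θ with hs
  have hcs : c ^ 2 + s ^ 2 = 1 := Real.cos_sq_add_sin_sq θ
  have hna : ‖c • e0 + s • e1‖ = 1 := by
    rw [EuclideanSpace.norm_eq, Real.sqrt_eq_one]
    simp [Fin.sum_univ_two, he0, he1]
    linarith
  have hnb : ‖(-s) • e0 + c • e1‖ = 1 := by
    rw [EuclideanSpace.norm_eq, Real.sqrt_eq_one]
    simp [Fin.sum_univ_two, he0, he1]
    linarith
  have hab : ⟪c • e0 + s • e1, (-s) • e0 + c • e1⟫ = 0 := by
    simp [he0, he1, PiLp.inner_apply, Fin.sum_univ_two]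
    ring
  obtain ⟨𝔟, h0, h1⟩ := exists_onb _ _ hna hnb hab
  have e00 : e0 0 = 1 := by simp [he0]
  have e01 : e0 1 = 0 := by simp [he0]
  have e10 : e1 0 = 0 := by simp [he1]
  have e11 : e1 1 = 1 := by simp [he1]
  refine ⟨𝔟, -c * s * m00 + c ^ 2 * m01 - s ^ 2 * m10 + c * s * m11,
    -c * s * m00 - s ^ 2 * m01 + c ^ 2 * m10 + c * s * m11, ?_, ?_, ?_⟩
  · rw [h0, h1]
    ext i
    fin_cases i
    · simp only [map_add, map_smul, PiLp.add_apply, PiLp.smul_apply, smul_eq_mul, Fin.zero_eta,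
        e00, e10, ← h00, ← h01]
      linear_combination c * hθ - (c*m00+s*m01) * hcs
    · simp only [map_add, map_smul, PiLp.add_apply, PiLp.smul_apply, smul_eq_mul, Fin.mk_one,
        e01, e11, ← h10, ← h11]
      linear_combination s * hθ - (c*m10+s*m11) * hcs
  · rw [h0, h1]
    ext i
    fin_cases i
    · simp only [map_add, map_smul, PiLp.add_apply, PiLp.smul_apply, smul_eq_mul, Fin.zero_eta,
        e00, e10, ← h00, ← h01]
      linear_combination s * hθ - s*(c^2+s^2) * htr - (-s*m00 + c*m01) * hcs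
    · simp only [map_add, map_smul, PiLp.add_apply, PiLp.smul_apply, smul_eq_mul, Fin.mk_one,
        e01, e11, ← h10, ← h11]
      linear_combination -c * hθ + c*(c^2+s^2) * htr - (-s*m10 + c*m11) * hcs
  · linear_combination (m00 * s^2 - (m01+m10)*c*s + m11*c^2) * hθ
      - (m00*m11 - m01*m10) * (c^2+s^2+1) * hcs

theorem onb_expand (𝔟 : OrthonormalBasis (Fin 2) ℝ E2) (x : E2) :
    x = ⟪𝔟 0, x⟫ • 𝔟 0 + ⟪𝔟 1, x⟫ • 𝔟 1 := by
  have := 𝔟.sum_repr' x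
  rw [Fin.sum_univ_two] at this
  exact this.symm

theorem onb_abs_inner_le (𝔟 : OrthonormalBasis (Fin 2) ℝ E2) (i : Fin 2) (x : E2) :
    |⟪𝔟 i, x⟫| ≤ ‖x‖ := by
  have := abs_real_inner_le_norm (𝔟 i) x
  rwa [𝔟.norm_eq_one i, one_mul] at this

theorem onb_norm_comb_le (𝔟 : OrthonormalBasis (Fin 2) ℝ E2) (x y : ℝ) :
    ‖x • 𝔟 0 + y • 𝔟 1‖ ≤ |x| + |y| := by
  calc ‖x • 𝔟 0 + y • 𝔟 1‖ ≤ ‖x • 𝔟 0‖ + ‖y • 𝔟 1‖ := norm_add_le _ _
    _ = |x| + |y| := by simp [norm_smul, 𝔟.norm_eq_one]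

/-- The covering statement for one patch. -/
theorem patch_cover (M : E2 →L[ℝ] E2) (𝔟 : OrthonormalBasis (Fin 2) ℝ E2) (β γ : ℝ)
    (hMa : M (𝔟 0) = γ • 𝔟 1) (hMb : M (𝔟 1) = β • 𝔟 0)
    (L c₀ B ℓ σ : ℝ) (hL : 0 < L) (hc₀ : 0 < c₀) (h0 : 0 ≤ β * γ)
    (h1 : c₀ ≤ 1 - L ^ 2 * (β * γ)) (hβ : L * |β| ≤ B) (hγ : L * |γ| ≤ B)
    (hℓ : 0 < ℓ) (hσ : 0 ≤ σ) (p₀ v₀ p w : E2) (s : ℝ) (hs : |s| ≤ L)
    (herr : ‖s • (w - v₀ - M (p - p₀))‖ ≤ σ) :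
    ∃ j k : ℤ, ‖p₀ + ((ℓ * j) • 𝔟 0 + (ℓ * k) • 𝔟 1) - p‖ ≤ 2 * ((1 + B) / c₀) * ℓ ∧
      ∃ x ∈ Set.Icc (0 : ℝ) 1, ∃ y ∈ Set.Icc (0 : ℝ) 1,
        p + s • w = (p₀ + ((ℓ * j) • 𝔟 0 + (ℓ * k) • 𝔟 1) - σ • 𝔟 0 - σ • 𝔟 1)
          + x • ((ℓ + 2 * σ) • 𝔟 0) + y • ((ℓ + 2 * σ) • 𝔟 1)
          + s • (v₀ + M ((ℓ * j) • 𝔟 0 + (ℓ * k) • 𝔟 1)) := by
  set a := 𝔟 0 with ha
  set b := 𝔟 1 with hb
  set ξ := ⟪a, p - p₀⟫ with hξ
  set ζ := ⟪b, p - p₀⟫ with hζ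
  have hp : p - p₀ = ξ • a + ζ • b := onb_expand 𝔟 _
  set e := s • (w - v₀ - M (p - p₀)) with he
  set ea := ⟪a, e⟫ with hea
  set eb := ⟪b, e⟫ with heb
  have hee : e = ea • a + eb • b := onb_expand 𝔟 _
  have hea' : |ea| ≤ σ := (onb_abs_inner_le 𝔟 0 e).trans herr
  have heb' : |eb| ≤ σ := (onb_abs_inner_le 𝔟 1 e).trans herr
  have hs2 : s ^ 2 ≤ L ^ 2 := by
    rw [← sq_abs s]
    exact pow_le_pow_left₀ (abs_nonneg s) hs 2
  have ht0 : 0 ≤ (s * γ) * (s * β) := by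
    have : (s * γ) * (s * β) = s ^ 2 * (β * γ) := by ring
    rw [this]; positivity
  have ht1 : c₀ ≤ 1 - (s * γ) * (s * β) := by
    have : (s * γ) * (s * β) = s ^ 2 * (β * γ) := by ring
    rw [this]
    have := mul_le_mul_of_nonneg_right hs2 h0
    linarith
  obtain ⟨j, k, ⟨hf1, hf1'⟩, hf2, hf2'⟩ := lattice_cover (s * γ) (s * β) ht0 (by linarith)
    ((ξ + s * β * ζ) / ℓ) ((ζ + s * γ * ξ) / ℓ)
  set f₁ := (ξ + s * β * ζ) / ℓ - (j + s * β * k) with hf₁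
  set f₂ := (ζ + s * γ * ξ) / ℓ - (k + s * γ * j) with hf₂
  have hBt : |s * γ| ≤ B := by
    rw [abs_mul]
    exact (mul_le_mul_of_nonneg_right hs (abs_nonneg γ)).trans hγ
  have hBτ : |s * β| ≤ B := by
    rw [abs_mul]
    exact (mul_le_mul_of_nonneg_right hs (abs_nonneg β)).trans hβ
  obtain ⟨hu, hv⟩ := lattice_local (s * γ) (s * β) c₀ B (ξ / ℓ - j) (ζ / ℓ - k) f₁ f₂ hc₀ ht1
    hBt hBτ ⟨hf1, hf1'⟩ ⟨hf2, hf2'⟩ (by rw [hf₁]; ring) (by rw [hf₂]; ring)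
  have hℓσ : 0 < ℓ + 2 * σ := by linarith
  refine ⟨j, k, ?_, (ℓ * f₁ + σ + ea) / (ℓ + 2 * σ), ⟨?_, ?_⟩, (ℓ * f₂ + σ + eb) / (ℓ + 2 * σ),
    ⟨?_, ?_⟩, ?_⟩
  · have h3 : p₀ + ((ℓ * j) • a + (ℓ * k) • b) - p
        = (-(ℓ * (ξ / ℓ - j))) • a + (-(ℓ * (ζ / ℓ - k))) • b := by
      have : p = p₀ + (ξ • a + ζ • b) := by rw [← hp]; abel
      rw [this]
      have h4 : ℓ * (ξ / ℓ - j) = ξ - ℓ * j := by field_simp
      have h5 : ℓ * (ζ / ℓ - k) = ζ - ℓ * k := by field_simp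
      rw [h4, h5]
      module
    rw [h3]
    refine (onb_norm_comb_le 𝔟 _ _).trans ?_
    rw [abs_neg, abs_neg, abs_mul, abs_mul, abs_of_pos hℓ]
    nlinarith
  · apply div_nonneg _ hℓσ.le
    have := (abs_le.mp hea').1
    have : 0 ≤ ℓ * f₁ := mul_nonneg hℓ.le hf1
    linarith
  · rw [div_le_one hℓσ]
    have := (abs_le.mp hea').2
    have : ℓ * f₁ ≤ ℓ * 1 := mul_le_mul_of_nonneg_left hf1' hℓ.le
    linarith
  · apply div_nonneg _ hℓσ.le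
    have := (abs_le.mp heb').1
    have : 0 ≤ ℓ * f₂ := mul_nonneg hℓ.le hf2
    linarith
  · rw [div_le_one hℓσ]
    have := (abs_le.mp heb').2
    have : ℓ * f₂ ≤ ℓ * 1 := mul_le_mul_of_nonneg_left hf2' hℓ.le
    linarith
  · have hp' : p = p₀ + (ξ • a + ζ • b) := by rw [← hp]; abel
    have hw : s • w = e + s • v₀ + s • M (p - p₀) := by rw [he]; module
    have hM1 : M (p - p₀) = (ξ * γ) • b + (ζ * β) • a := by
      rw [hp, map_add, map_smul, map_smul, hMa, hMb, smul_smul, smul_smul]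
    have hM2 : M ((ℓ * j) • a + (ℓ * k) • b) = (ℓ * j * γ) • b + (ℓ * k * β) • a := by
      rw [map_add, map_smul, map_smul, hMa, hMb, smul_smul, smul_smul]
    have hx : (ℓ * f₁ + σ + ea) / (ℓ + 2 * σ) * (ℓ + 2 * σ) = ℓ * f₁ + σ + ea := by
      field_simp
    have hy : (ℓ * f₂ + σ + eb) / (ℓ + 2 * σ) * (ℓ + 2 * σ) = ℓ * f₂ + σ + eb := by
      field_simp
    have hf1e : ℓ * f₁ = ξ + s * β * ζ - ℓ * (j + s * β * k) := by rw [hf₁]; field_simp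
    have hf2e : ℓ * f₂ = ζ + s * γ * ξ - ℓ * (k + s * γ * j) := by rw [hf₂]; field_simp
    rw [hw, hM1, hM2, smul_smul, smul_smul, hx, hy, hf1e, hf2e, hee]
    nth_rewrite 1 [hp']
    module

end Crest.Agent.S0326Aux
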