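import Mathlib
import Crest.Agent.S0326Aux.Frame

set_option autoImplicit false
open scoped RealInnerProductSpace ENNReal
open MeasureTheory

namespace Crest.Agent.S0326Aux

/-- Uniform first-order Taylor estimate on a compact set. -/
theorem uniform_diff (D U : Set E2) (hD : IsCompact D) (hU : IsOpen U) (hDU : D ⊆ U)
    (V : E2 → E2) (hV : ContDiffOn ℝ 1 V U) (η : ℝ) (hη : 0 < η) :
    ∃ δ > 0, ∀ p ∈ D, ∀ q, dist q p ≤ δ →
      ‖V q - V p - fderiv ℝ V p (q - p)‖ ≤ η * ‖q - p‖ := by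
  obtain ⟨r₀, hr₀, hK⟩ := hD.exists_cthickening_subset_open hU hDU
  have hKc : IsCompact (Metric.cthickening r₀ D) := hD.cthickening
  have hcont : ContinuousOn (fderiv ℝ V) (Metric.cthickening r₀ D) :=
    (hV.continuousOn_fderiv_of_isOpen hU le_rfl).mono hK
  have huc := hKc.uniformContinuousOn_of_continuous hcont
  rw [Metric.uniformContinuousOn_iff] at huc
  obtain ⟨δ₁, hδ₁, huc⟩ := huc η hη
  refine ⟨min r₀ (δ₁ / 2), by positivity, ?_⟩
  intro p hp q hq
  have hsub : Metric.closedBall p (min r₀ (δ₁ / 2)) ⊆ Metric.cthickening r₀ D :=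
    (Metric.closedBall_subset_closedBall (min_le_left _ _)).trans
      (Metric.closedBall_subset_cthickening hp r₀)
  have hpK : p ∈ Metric.cthickening r₀ D := Metric.self_subset_cthickening D hp
  apply Convex.norm_image_sub_le_of_norm_fderiv_le' (s := Metric.closedBall p (min r₀ (δ₁ / 2)))
  · intro x hx
    exact (hV.differentiableOn one_ne_zero).differentiableAt (hU.mem_nhds (hK (hsub hx)))
  · intro x hx
    have h1 : dist x p < δ₁ := by
      have : dist x p ≤ min r₀ (δ₁ / 2) := hx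
      have := this.trans (min_le_right _ _)
      linarith
    have := huc x (hsub hx) p hpK h1
    rw [dist_eq_norm] at this
    exact this.le
  · exact convex_closedBall _ _
  · exact Metric.mem_closedBall_self (by positivity)
  · exact hq

/-- The weight. -/
noncomputable def J (h : ℝ) (g : E2) : ℝ := 1 / Real.sqrt (1 + (g 0) ^ 2 + h ^ 2 * (g 1) ^ 2)

theorem J_pos (h : ℝ) (g : E2) : 0 < J h g := by
  unfold J
  have : 0 < 1 + (g 0) ^ 2 + h ^ 2 * (g 1) ^ 2 := by positivity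
  positivity

theorem J_le_one (h : ℝ) (g : E2) : J h g ≤ 1 := by
  unfold J
  rw [div_le_one (Real.sqrt_pos.mpr (by positivity))]
  rw [Real.one_le_sqrt]
  nlinarith [sq_nonneg (g 0), mul_nonneg (sq_nonneg h) (sq_nonneg (g 1))]

theorem abs_coord_le (x : E2) (i : Fin 2) : |x i| ≤ ‖x‖ := by
  have := PiLp.norm_apply_le x i
  simpa using this

theorem J_lip (h : ℝ) (hh : 0 < h) (g g' : E2) : J h g ≤ J h g' + (1 + h) * ‖g - g'‖ := by
  set A := Real.sqrt (1 + (g 0) ^ 2 + h ^ 2 * (g 1) ^ 2) with hA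
  set B := Real.sqrt (1 + (g' 0) ^ 2 + h ^ 2 * (g' 1) ^ 2) with hB
  have hA2 : A ^ 2 = 1 + (g 0) ^ 2 + h ^ 2 * (g 1) ^ 2 := Real.sq_sqrt (by positivity)
  have hB2 : B ^ 2 = 1 + (g' 0) ^ 2 + h ^ 2 * (g' 1) ^ 2 := Real.sq_sqrt (by positivity)
  have hA1 : 1 ≤ A := by
    rw [hA, Real.one_le_sqrt]
    nlinarith [sq_nonneg (g 0), mul_nonneg (sq_nonneg h) (sq_nonneg (g 1))]
  have hB1 : 1 ≤ B := by
    rw [hB, Real.one_le_sqrt]
    nlinarith [sq_nonneg (g' 0), mul_nonneg (sq_nonneg h) (sq_nonneg (g' 1))]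
  set d := |g 0 - g' 0| + h * |g 1 - g' 1| with hd
  have hd0 : 0 ≤ d := by positivity
  have hAg0 : |g 0| ≤ A := Real.abs_le_sqrt (by nlinarith [mul_nonneg (sq_nonneg h) (sq_nonneg (g 1))])
  have hAg1 : h * |g 1| ≤ A := by
    have : |h * g 1| ≤ A := Real.abs_le_sqrt (by nlinarith [sq_nonneg (g 0)])
    rwa [abs_mul, abs_of_pos hh] at this
  have hBA : B ≤ A + d := by
    rw [hB]
    apply Real.sqrt_le_iff.mpr
    refine ⟨by positivity, ?_⟩
    set x := g 0 - g' 0 with hx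
    set y := g 1 - g' 1 with hy
    have e0 : g' 0 = g 0 - x := by rw [hx]; ring
    have e1 : g' 1 = g 1 - y := by rw [hy]; ring
    rw [e0, e1]
    have k1 : -(g 0 * x) ≤ |g 0| * |x| := by
      rw [← abs_mul]; exact neg_le_abs _
    have k2 : -(g 1 * y) ≤ |g 1| * |y| := by
      rw [← abs_mul]; exact neg_le_abs _
    have k3 : |g 0| * |x| ≤ A * |x| := mul_le_mul_of_nonneg_right hAg0 (abs_nonneg x)
    have k4 : (h * |g 1|) * (h * |y|) ≤ A * (h * |y|) :=
      mul_le_mul_of_nonneg_right hAg1 (by positivity)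
    have k5 : x ^ 2 = |x| ^ 2 := (sq_abs x).symm
    have k6 : y ^ 2 = |y| ^ 2 := (sq_abs y).symm
    have k7 : 0 ≤ |x| * (h * |y|) := by positivity
    have k8 : h ^ 2 * (-(g 1 * y)) ≤ h ^ 2 * (|g 1| * |y|) :=
      mul_le_mul_of_nonneg_left k2 (sq_nonneg h)
    have expand : (A + (|x| + h * |y|)) ^ 2
        = A ^ 2 + 2 * (A * |x|) + 2 * (A * (h * |y|)) + |x| ^ 2 + h ^ 2 * |y| ^ 2
          + 2 * (|x| * (h * |y|)) := by ring
    rw [expand, hA2]
    nlinarith
  have hdn : d ≤ (1 + h) * ‖g - g'‖ := by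
    have h0 := abs_coord_le (g - g') 0
    have h1 := abs_coord_le (g - g') 1
    simp only [PiLp.sub_apply] at h0 h1
    rw [hd]
    nlinarith
  have hJ : J h g = 1 / A := rfl
  have hJ' : J h g' = 1 / B := rfl
  rw [hJ, hJ']
  have hApos : 0 < A := by linarith
  have hBpos : 0 < B := by linarith
  have : 1 / A - 1 / B ≤ d := by
    rw [div_sub_div _ _ hApos.ne' hBpos.ne', div_le_iff₀ (by positivity)]
    have : 1 ≤ A * B := by nlinarith
    nlinarith
  linarith

theorem J_continuous (h : ℝ) : Continuous (J h) := by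
  unfold J
  apply Continuous.div continuous_const
  · fun_prop
  · intro g
    have : 0 < 1 + (g 0) ^ 2 + h ^ 2 * (g 1) ^ 2 := by positivity
    exact (Real.sqrt_pos.mpr this).ne'

/-- Uniform constants on the compact set. -/
theorem exists_consts (D U : Set E2) (hD : IsCompact D) (hU : IsOpen U) (hDU : D ⊆ U)
    (V : E2 → E2) (hV : ContDiffOn ℝ 1 V U) (L : ℝ)
    (hdet : ∀ p ∈ D, -(L ^ 2)⁻¹ < LinearMap.det (fderiv ℝ V p).toLinearMap) (hL : 0 < L) :
    ∃ BM c₀ : ℝ, 0 ≤ BM ∧ 0 < c₀ ∧ (∀ p ∈ D, ‖fderiv ℝ V p‖ ≤ BM) ∧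
      ∀ p ∈ D, c₀ ≤ 1 + L ^ 2 * LinearMap.det (fderiv ℝ V p).toLinearMap := by
  have hcont : ContinuousOn (fderiv ℝ V) D :=
    (hV.continuousOn_fderiv_of_isOpen hU le_rfl).mono hDU
  obtain ⟨BM, hBM⟩ := hD.exists_bound_of_continuousOn hcont
  have hcd : ContinuousOn (fun p => 1 + L ^ 2 * (fderiv ℝ V p).det) D := by
    apply ContinuousOn.add continuousOn_const
    apply ContinuousOn.mul continuousOn_const
    exact ContinuousLinearMap.continuous_det.comp_continuousOn hcont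
  have hpos : ∀ p ∈ D, 0 < 1 + L ^ 2 * LinearMap.det (fderiv ℝ V p).toLinearMap := by
    intro p hp
    have h1 := hdet p hp
    have h2 : 0 < L ^ 2 := by positivity
    have h3 : L ^ 2 * -(L ^ 2)⁻¹ < L ^ 2 * LinearMap.det (fderiv ℝ V p).toLinearMap :=
      mul_lt_mul_of_pos_left h1 h2
    have h4 : L ^ 2 * -(L ^ 2)⁻¹ = -1 := by field_simp
    linarith
  rcases D.eq_empty_or_nonempty with hE | hne
  · refine ⟨0, 1, le_rfl, one_pos, ?_, ?_⟩ <;> simp [hE]
  · obtain ⟨p₀, hp₀, hmin⟩ := hD.exists_isMinOn hne hcd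
    refine ⟨max BM 0, _, le_max_right _ _, hpos p₀ hp₀, fun p hp => (hBM p hp).trans (le_max_left _ _), ?_⟩
    intro p hp
    exact hmin hp

end Crest.Agent.S0326Aux
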