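import Mathlib
import Crest.Agent.S0326Aux.Frame

set_option autoImplicit false
open scoped RealInnerProductSpace ENNReal
open MeasureTheory

namespace Crest.Agent.S0326Aux

/-- Half-open square tiles of a (rotated, translated) square grid. -/
def Tile (𝔟 : OrthonormalBasis (Fin 2) ℝ E2) (o : E2) (ℓ : ℝ) (m : ℤ × ℤ) : Set E2 :=
  {q | (ℓ * m.1 ≤ ⟪𝔟 0, q - o⟫ ∧ ⟪𝔟 0, q - o⟫ < ℓ * (m.1 + 1)) ∧
       (ℓ * m.2 ≤ ⟪𝔟 1, q - o⟫ ∧ ⟪𝔟 1, q - o⟫ < ℓ * (m.2 + 1))}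

theorem tile_measurable (𝔟 : OrthonormalBasis (Fin 2) ℝ E2) (o : E2) (ℓ : ℝ) (m : ℤ × ℤ) :
    MeasurableSet (Tile 𝔟 o ℓ m) := by
  have h0 : Measurable fun q : E2 => ⟪𝔟 0, q - o⟫ := by fun_prop
  have h1 : Measurable fun q : E2 => ⟪𝔟 1, q - o⟫ := by fun_prop
  exact ((measurableSet_le measurable_const h0).inter (measurableSet_lt h0 measurable_const)).inter
    ((measurableSet_le measurable_const h1).inter (measurableSet_lt h1 measurable_const))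

theorem tile_volume (𝔟 : OrthonormalBasis (Fin 2) ℝ E2) (o : E2) (ℓ : ℝ) (hℓ : 0 ≤ ℓ)
    (m : ℤ × ℤ) : volume (Tile 𝔟 o ℓ m) = ENNReal.ofReal (ℓ ^ 2) := by
  have hmp : MeasurePreserving (fun q : E2 => WithLp.ofLp (𝔟.repr (q - o))) volume volume :=
    ((PiLp.volume_preserving_ofLp (Fin 2)).comp 𝔟.measurePreserving_repr).comp
      (measurePreserving_sub_right volume o)
  have hset : Tile 𝔟 o ℓ m = (fun q : E2 => WithLp.ofLp (𝔟.repr (q - o))) ⁻¹'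
      (Set.pi Set.univ fun i : Fin 2 => Set.Ico (![ℓ * m.1, ℓ * m.2] i)
        (![ℓ * (m.1 + 1), ℓ * (m.2 + 1)] i)) := by
    ext q
    simp [Tile, Fin.forall_fin_two, OrthonormalBasis.repr_apply_apply, inner_sub_right]
  rw [hset, hmp.measure_preimage (MeasurableSet.univ_pi fun i => measurableSet_Ico).nullMeasurableSet,
    Real.volume_pi_Ico, Fin.prod_univ_two]
  simp only [Matrix.cons_val_zero, Matrix.cons_val_one]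
  rw [← ENNReal.ofReal_mul (by nlinarith)]
  congr 1
  ring

theorem tile_disjoint (𝔟 : OrthonormalBasis (Fin 2) ℝ E2) (o : E2) (ℓ : ℝ) (hℓ : 0 < ℓ)
    (m m' : ℤ × ℤ) (hm : m ≠ m') : Disjoint (Tile 𝔟 o ℓ m) (Tile 𝔟 o ℓ m') := by
  rw [Set.disjoint_left]
  rintro q ⟨⟨h1, h2⟩, h3, h4⟩ ⟨⟨h1', h2'⟩, h3', h4'⟩
  apply hm
  have key : ∀ (x : ℝ) (i i' : ℤ), ℓ * i ≤ x → x < ℓ * (i + 1) → ℓ * i' ≤ x → x < ℓ * (i' + 1) →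
      i = i' := by
    intro x i i' a1 a2 a3 a4
    have b1 : (i : ℝ) < i' + 1 := lt_of_mul_lt_mul_left (a1.trans_lt a4) hℓ.le
    have b2 : (i' : ℝ) < i + 1 := lt_of_mul_lt_mul_left (a3.trans_lt a2) hℓ.le
    have c1 : i < i' + 1 := by exact_mod_cast b1
    have c2 : i' < i + 1 := by exact_mod_cast b2
    omega
  exact Prod.ext (key _ _ _ h1 h2 h1' h2') (key _ _ _ h3 h4 h3' h4')

theorem tile_mem (𝔟 : OrthonormalBasis (Fin 2) ℝ E2) (o : E2) (ℓ : ℝ) (hℓ : 0 < ℓ) (q : E2) :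
    q ∈ Tile 𝔟 o ℓ (⌊⟪𝔟 0, q - o⟫ / ℓ⌋, ⌊⟪𝔟 1, q - o⟫ / ℓ⌋) := by
  have key : ∀ x : ℝ, ℓ * (⌊x / ℓ⌋ : ℝ) ≤ x ∧ x < ℓ * ((⌊x / ℓ⌋ : ℝ) + 1) := by
    intro x
    have h1 := Int.floor_le (x / ℓ)
    have h2 := Int.lt_floor_add_one (x / ℓ)
    rw [le_div_iff₀ hℓ] at h1
    rw [div_lt_iff₀ hℓ] at h2
    constructor <;> linarith
  exact ⟨key _, key _⟩

theorem tile_norm_sub_le (𝔟 : OrthonormalBasis (Fin 2) ℝ E2) (o : E2) (ℓ : ℝ)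
    (m : ℤ × ℤ) (q : E2) (hq : q ∈ Tile 𝔟 o ℓ m) :
    ‖q - (o + ((ℓ * m.1) • 𝔟 0 + (ℓ * m.2) • 𝔟 1))‖ ≤ 2 * ℓ := by
  obtain ⟨⟨h1, h2⟩, h3, h4⟩ := hq
  have h5 : q - (o + ((ℓ * m.1) • 𝔟 0 + (ℓ * m.2) • 𝔟 1))
      = (⟪𝔟 0, q - o⟫ - ℓ * m.1) • 𝔟 0 + (⟪𝔟 1, q - o⟫ - ℓ * m.2) • 𝔟 1 := by
    have := onb_expand 𝔟 (q - o)
    have h6 : q - (o + ((ℓ * m.1) • 𝔟 0 + (ℓ * m.2) • 𝔟 1))
      = (q - o) - ((ℓ * m.1) • 𝔟 0 + (ℓ * m.2) • 𝔟 1) := by abel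
    rw [h6]
    nth_rewrite 1 [this]
    module
  rw [h5]
  refine (onb_norm_comb_le 𝔟 _ _).trans ?_
  rw [abs_of_nonneg (by linarith), abs_of_nonneg (by linarith)]
  linarith

/-- Packing bound. -/
theorem tile_packing (𝔟 𝔟' : OrthonormalBasis (Fin 2) ℝ E2) (o o' : E2) (ℓ R : ℝ) (hℓ : 0 < ℓ)
    (hR : 0 ≤ R) (F : Finset (ℤ × ℤ)) (m' : ℤ × ℤ)
    (hF : ∀ m ∈ F, Tile 𝔟 o ℓ m ⊆ Tile 𝔟' o' R m') :
    (F.card : ℝ) * ℓ ^ 2 ≤ R ^ 2 := by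
  have h1 : volume (⋃ m ∈ F, Tile 𝔟 o ℓ m) = ∑ m ∈ F, volume (Tile 𝔟 o ℓ m) :=
    measure_biUnion_finset (fun m _ m' _ hmm => tile_disjoint 𝔟 o ℓ hℓ m m' hmm)
      (fun m _ => tile_measurable 𝔟 o ℓ m)
  have h2 : volume (⋃ m ∈ F, Tile 𝔟 o ℓ m) ≤ volume (Tile 𝔟' o' R m') :=
    measure_mono (Set.iUnion₂_subset hF)
  rw [h1, tile_volume 𝔟' o' R hR] at h2
  simp only [tile_volume 𝔟 o ℓ hℓ.le, Finset.sum_const, nsmul_eq_mul] at h2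
  have h3 : (F.card : ℝ≥0∞) * ENNReal.ofReal (ℓ ^ 2) = ENNReal.ofReal ((F.card : ℝ) * ℓ ^ 2) := by
    rw [ENNReal.ofReal_mul (by positivity), ENNReal.ofReal_natCast]
  rw [h3] at h2
  exact (ENNReal.ofReal_le_ofReal_iff (by positivity)).mp h2

end Crest.Agent.S0326Aux
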