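import Mathlib
import Crest.Agent.S0326Aux.Tiles

set_option autoImplicit false
open scoped RealInnerProductSpace ENNReal
open MeasureTheory

namespace Crest.Agent.S0326Aux

theorem tile_dist_le (𝔟 : OrthonormalBasis (Fin 2) ℝ E2) (o : E2) (ℓ : ℝ)
    (m : ℤ × ℤ) (q q' : E2) (hq : q ∈ Tile 𝔟 o ℓ m) (hq' : q' ∈ Tile 𝔟 o ℓ m) :
    dist q q' ≤ 4 * ℓ := by
  have h1 := tile_norm_sub_le 𝔟 o ℓ m q hq
  have h2 := tile_norm_sub_le 𝔟 o ℓ m q' hq'
  rw [← dist_eq_norm] at h1 h2
  have := dist_triangle_right q q' (o + ((ℓ * m.1) • 𝔟 0 + (ℓ * m.2) • 𝔟 1))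
  linarith

theorem tile_real (𝔟 : OrthonormalBasis (Fin 2) ℝ E2) (o : E2) (ℓ : ℝ) (hℓ : 0 ≤ ℓ)
    (m : ℤ × ℤ) : volume.real (Tile 𝔟 o ℓ m) = ℓ ^ 2 := by
  rw [measureReal_def, tile_volume 𝔟 o ℓ hℓ, ENNReal.toReal_ofReal (by positivity)]

theorem tile_ne_top (𝔟 : OrthonormalBasis (Fin 2) ℝ E2) (o : E2) (ℓ : ℝ) (hℓ : 0 ≤ ℓ)
    (m : ℤ × ℤ) : volume (Tile 𝔟 o ℓ m) ≠ ∞ := by
  rw [tile_volume 𝔟 o ℓ hℓ]; exact ENNReal.ofReal_ne_top

/-- Upper Riemann sums over the grid cells meeting a compact set. -/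
theorem riemann_upper (𝔟 : OrthonormalBasis (Fin 2) ℝ E2) (o : E2)
    (D : Set E2) (hD : IsCompact D) (f : E2 → ℝ) (hf : ContinuousOn f D)
    (hf0 : ∀ q, 0 ≤ f q) (Bf : ℝ) (hfB : ∀ q, f q ≤ Bf) (ω : ℝ) (hω : 0 < ω) :
    ∃ r₁ > 0, ∀ r, 0 < r → r ≤ r₁ → ∀ (G : Finset (ℤ × ℤ)) (pt : ℤ × ℤ → E2),
      (∀ m ∈ G, pt m ∈ D ∧ pt m ∈ Tile 𝔟 o r m) →
      ∑ m ∈ G, r ^ 2 * f (pt m) ≤ (∫ q in D, f q) + ω := by
  have hBf : 0 ≤ Bf := (hf0 0).trans (hfB 0)
  set A := volume.real D with hA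
  have hA0 : 0 ≤ A := measureReal_nonneg
  have hDtop : volume D ≠ ∞ := hD.measure_lt_top.ne
  have hDm : MeasurableSet D := hD.measurableSet
  set ω₁ := ω / (2 * (A + 1)) with hω₁
  set ω₂ := ω / (2 * (Bf + 1)) with hω₂
  have hω₁0 : 0 < ω₁ := by positivity
  have hω₂0 : 0 < ω₂ := by positivity
  -- uniform continuity
  have huc := hD.uniformContinuousOn_of_continuous hf
  rw [Metric.uniformContinuousOn_iff] at huc
  obtain ⟨δ, hδ, huc⟩ := huc ω₁ hω₁0
  -- thickening
  have hth := tendsto_measure_cthickening_of_isCompact (μ := (volume : Measure E2)) hD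
  have hev : ∀ᶠ ρ in nhds (0 : ℝ), volume (Metric.cthickening ρ D) < volume D + ENNReal.ofReal ω₂ :=
    hth.eventually_lt_const (ENNReal.lt_add_right hDtop (by simpa using hω₂0))
  obtain ⟨ρ₀, hρ₀, hball⟩ := Metric.eventually_nhds_iff.mp hev
  set ρ := ρ₀ / 2 with hρ
  have hρ0 : 0 < ρ := by positivity
  have hK : volume (Metric.cthickening ρ D) < volume D + ENNReal.ofReal ω₂ := by
    apply hball
    rw [Real.dist_eq, sub_zero, abs_of_pos hρ0]
    linarith
  have hKtop : volume (Metric.cthickening ρ D) ≠ ∞ := (hK.trans_le le_top).ne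
  have hKreal : volume.real (Metric.cthickening ρ D) ≤ A + ω₂ := by
    rw [measureReal_def, hA, measureReal_def, ← ENNReal.toReal_ofReal hω₂0.le,
      ← ENNReal.toReal_add hDtop ENNReal.ofReal_ne_top]
    exact ENNReal.toReal_mono (ENNReal.add_ne_top.mpr ⟨hDtop, ENNReal.ofReal_ne_top⟩) hK.le
  refine ⟨min (δ / 5) (ρ / 4), by positivity, ?_⟩
  intro r hr hr1 G pt hpt
  have hrδ : 4 * r < δ := by
    have := hr1.trans (min_le_left _ _)
    linarith
  have hrρ : 4 * r ≤ ρ := by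
    have := hr1.trans (min_le_right _ _)
    linarith
  set T := fun m : ℤ × ℤ => Tile 𝔟 o r m with hT
  have hTm : ∀ m, MeasurableSet (T m) := fun m => tile_measurable 𝔟 o r m
  have hTtop : ∀ m, volume (T m) ≠ ∞ := fun m => tile_ne_top 𝔟 o r hr.le m
  have hfint : IntegrableOn f D volume := hf.integrableOn_compact hD
  -- estimate on one tile
  have htile : ∀ m ∈ G, r ^ 2 * f (pt m) ≤ (∫ q in T m ∩ D, f q) + ω₁ * volume.real (T m ∩ D)
      + Bf * volume.real (T m \ D) := by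
    intro m hm
    obtain ⟨hptD, hptT⟩ := hpt m hm
    have h1 : r ^ 2 = volume.real (T m ∩ D) + volume.real (T m \ D) := by
      rw [measureReal_inter_add_sdiff hDm (hTtop m)]
      exact (tile_real 𝔟 o r hr.le m).symm
    have hint : IntegrableOn f (T m ∩ D) volume := hfint.mono_set Set.inter_subset_right
    have htop' : volume (T m ∩ D) ≠ ∞ := measure_ne_top_of_subset Set.inter_subset_left (hTtop m)
    have h2 : volume.real (T m ∩ D) * f (pt m) ≤ (∫ q in T m ∩ D, f q)
        + ω₁ * volume.real (T m ∩ D) := by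
      have h3 : ∫ _ in T m ∩ D, (f (pt m) - ω₁) ≤ ∫ q in T m ∩ D, f q := by
        apply setIntegral_mono_on (integrableOn_const htop') hint ((hTm m).inter hDm)
        intro q hq
        have h4 : dist q (pt m) < δ := (tile_dist_le 𝔟 o r m q (pt m) hq.1 hptT).trans_lt hrδ
        have h5 := huc q hq.2 (pt m) hptD h4
        rw [Real.dist_eq] at h5
        have := (abs_lt.mp h5).1
        linarith
      rw [setIntegral_const, smul_eq_mul] at h3
      linarith
    have h6 : volume.real (T m \ D) * f (pt m) ≤ Bf * volume.real (T m \ D) := by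
      rw [mul_comm]
      exact mul_le_mul_of_nonneg_right (hfB _) measureReal_nonneg
    rw [h1, add_mul]
    linarith
  have hdisj : ∀ (S : ℤ × ℤ → Set E2), (∀ m, S m ⊆ T m) →
      Set.PairwiseDisjoint (↑G : Set (ℤ × ℤ)) S := by
    intro S hS m _ m' _ hmm
    exact (tile_disjoint 𝔟 o r hr m m' hmm).mono (hS m) (hS m')
  -- sums
  have hs1 : ∑ m ∈ G, ∫ q in T m ∩ D, f q ≤ ∫ q in D, f q := by
    rw [← integral_biUnion_finset G (fun m _ => (hTm m).inter hDm)
      (hdisj _ fun m => Set.inter_subset_left)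
      (fun m _ => hfint.mono_set Set.inter_subset_right)]
    apply setIntegral_mono_set hfint (Filter.Eventually.of_forall fun q => hf0 q)
    apply LE.le.eventuallyLE
    intro q hq
    simp only [Set.mem_iUnion] at hq
    obtain ⟨m, _, hq⟩ := hq
    exact hq.2
  have hs2 : ∑ m ∈ G, volume.real (T m ∩ D) ≤ A := by
    rw [← measureReal_biUnion_finset (hdisj _ fun m => Set.inter_subset_left)
      (fun m _ => (hTm m).inter hDm)
      (fun m _ => measure_ne_top_of_subset Set.inter_subset_left (hTtop m))]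
    apply measureReal_mono _ hDtop
    intro q hq
    simp only [Set.mem_iUnion] at hq
    obtain ⟨m, _, hq⟩ := hq
    exact hq.2
  have hs3 : ∑ m ∈ G, volume.real (T m \ D) ≤ ω₂ := by
    rw [← measureReal_biUnion_finset (hdisj _ fun m => Set.sdiff_subset)
      (fun m _ => (hTm m).diff hDm)
      (fun m _ => measure_ne_top_of_subset Set.sdiff_subset (hTtop m))]
    have hsub : (⋃ m ∈ G, T m \ D) ⊆ Metric.cthickening ρ D \ D := by
      intro q hq
      simp only [Set.mem_iUnion] at hq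
      obtain ⟨m, hm, hq⟩ := hq
      refine ⟨?_, hq.2⟩
      obtain ⟨hptD, hptT⟩ := hpt m hm
      apply Metric.mem_cthickening_of_dist_le q (pt m) ρ D hptD
      exact (tile_dist_le 𝔟 o r m q (pt m) hq.1 hptT).trans hrρ
    have h7 : volume.real (Metric.cthickening ρ D \ D) ≤ ω₂ := by
      have h8 := measureReal_inter_add_sdiff (μ := volume) (s := Metric.cthickening ρ D) hDm hKtop
      rw [Set.inter_eq_self_of_subset_right (Metric.self_subset_cthickening D)] at h8
      linarith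
    exact (measureReal_mono hsub (measure_ne_top_of_subset Set.sdiff_subset hKtop)).trans h7
  calc ∑ m ∈ G, r ^ 2 * f (pt m)
      ≤ ∑ m ∈ G, ((∫ q in T m ∩ D, f q) + ω₁ * volume.real (T m ∩ D)
        + Bf * volume.real (T m \ D)) := Finset.sum_le_sum htile
    _ = ∑ m ∈ G, (∫ q in T m ∩ D, f q) + ω₁ * ∑ m ∈ G, volume.real (T m ∩ D)
        + Bf * ∑ m ∈ G, volume.real (T m \ D) := by
      rw [Finset.sum_add_distrib, Finset.sum_add_distrib, Finset.mul_sum, Finset.mul_sum]
    _ ≤ (∫ q in D, f q) + ω₁ * A + Bf * ω₂ := by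
      have := mul_le_mul_of_nonneg_left hs2 hω₁0.le
      have := mul_le_mul_of_nonneg_left hs3 hBf
      linarith
    _ ≤ (∫ q in D, f q) + ω := by
      have h9 : ω₁ * A ≤ ω / 2 := by
        rw [hω₁, div_mul_eq_mul_div, div_le_div_iff₀ (by positivity) (by positivity)]
        nlinarith
      have h10 : Bf * ω₂ ≤ ω / 2 := by
        rw [hω₂, mul_div_assoc', div_le_div_iff₀ (by positivity) (by positivity)]
        nlinarith
      linarith

end Crest.Agent.S0326Aux
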