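import Mathlib
import Crest.Agent.S0326Aux.Riemann
import Crest.Agent.S0326Aux.Analysis

set_option autoImplicit false
open scoped RealInnerProductSpace ENNReal
open MeasureTheory

namespace Crest.Agent.S0326Aux

/-- lattice point -/
noncomputable def latPt (𝔟 : OrthonormalBasis (Fin 2) ℝ E2) (ℓ : ℝ) (m : ℤ × ℤ) : E2 :=
  (ℓ * m.1) • 𝔟 0 + (ℓ * m.2) • 𝔟 1

theorem inner_latPt0 (𝔟 : OrthonormalBasis (Fin 2) ℝ E2) (ℓ : ℝ) (m : ℤ × ℤ) :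
    ⟪𝔟 0, latPt 𝔟 ℓ m⟫ = ℓ * m.1 := by
  have h01 : ⟪𝔟 0, 𝔟 1⟫ = 0 := 𝔟.inner_eq_zero (by decide)
  simp [latPt, inner_add_right, inner_smul_right, h01]

theorem inner_latPt1 (𝔟 : OrthonormalBasis (Fin 2) ℝ E2) (ℓ : ℝ) (m : ℤ × ℤ) :
    ⟪𝔟 1, latPt 𝔟 ℓ m⟫ = ℓ * m.2 := by
  have h10 : ⟪𝔟 1, 𝔟 0⟫ = 0 := 𝔟.inner_eq_zero (by decide)
  simp [latPt, inner_add_right, inner_smul_right, h10]

theorem latPt_finite (𝔟 : OrthonormalBasis (Fin 2) ℝ E2) (ℓ : ℝ) (hℓ : 0 < ℓ) (R : ℝ) :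
    {m : ℤ × ℤ | ‖latPt 𝔟 ℓ m‖ ≤ R}.Finite := by
  apply (Set.finite_Icc ((-⌈R / ℓ⌉, -⌈R / ℓ⌉) : ℤ × ℤ) (⌈R / ℓ⌉, ⌈R / ℓ⌉)).subset
  intro m hm
  have hm' : ‖latPt 𝔟 ℓ m‖ ≤ R := hm
  have key : ∀ i : ℤ, |ℓ * (i : ℝ)| ≤ R → -⌈R / ℓ⌉ ≤ i ∧ i ≤ ⌈R / ℓ⌉ := by
    intro i hi
    rw [abs_mul, abs_of_pos hℓ] at hi
    have h1 : |(i : ℝ)| ≤ R / ℓ := by rw [le_div_iff₀ hℓ]; linarith
    have h2 := Int.le_ceil (R / ℓ)
    obtain ⟨h3, h4⟩ := abs_le.mp h1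
    constructor
    · have : -(⌈R / ℓ⌉ : ℝ) ≤ i := by linarith
      exact_mod_cast this
    · have : (i : ℝ) ≤ ⌈R / ℓ⌉ := by linarith
      exact_mod_cast this
  have h0 := key m.1 (by rw [← inner_latPt0 𝔟 ℓ m]; exact (onb_abs_inner_le 𝔟 0 _).trans hm')
  have h1 := key m.2 (by rw [← inner_latPt1 𝔟 ℓ m]; exact (onb_abs_inner_le 𝔟 1 _).trans hm')
  exact ⟨⟨h0.1, h1.1⟩, ⟨h0.2, h1.2⟩⟩

/-- lattice points close to a bounded set are finitely many -/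
theorem latPt_near_finite (𝔟 : OrthonormalBasis (Fin 2) ℝ E2) (o : E2) (ℓ : ℝ) (hℓ : 0 < ℓ)
    (S : Set E2) (hS : Bornology.IsBounded S) (c : ℝ) :
    {m : ℤ × ℤ | ∃ p ∈ S, ‖o + latPt 𝔟 ℓ m - p‖ ≤ c}.Finite := by
  obtain ⟨R, hR⟩ := hS.exists_norm_le
  apply (latPt_finite 𝔟 ℓ hℓ (c + R + ‖o‖)).subset
  rintro m ⟨p, hp, hpc⟩
  have h1 : latPt 𝔟 ℓ m = (o + latPt 𝔟 ℓ m - p) + p - o := by abel
  have h2 : ‖latPt 𝔟 ℓ m‖ ≤ ‖o + latPt 𝔟 ℓ m - p‖ + ‖p‖ + ‖o‖ := by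
    calc ‖latPt 𝔟 ℓ m‖ = ‖(o + latPt 𝔟 ℓ m - p) + p - o‖ := by rw [← h1]
      _ ≤ ‖(o + latPt 𝔟 ℓ m - p) + p‖ + ‖o‖ := norm_sub_le _ _
      _ ≤ ‖o + latPt 𝔟 ℓ m - p‖ + ‖p‖ + ‖o‖ := by gcongr; exact norm_add_le _ _
  have := hR p hp
  show ‖latPt 𝔟 ℓ m‖ ≤ c + R + ‖o‖
  linarith

/-- Reindexing a finset-indexed family by `Fin k`. -/
theorem reindex {α : Type*} (T : Finset α) (c a b g : α → E2) (S : Set (ℝ × E2)) (h X : ℝ)
    (h1 : ∀ i ∈ T, a i ≠ 0 ∧ ‖b i‖ = ‖a i‖ ∧ inner ℝ (a i) (b i) = 0)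
    (h2 : ∀ z ∈ S, ∃ i ∈ T, ∃ x ∈ Set.Icc (0 : ℝ) 1, ∃ y ∈ Set.Icc (0 : ℝ) 1,
          z.2 = c i + x • a i + y • b i + z.1 • g i)
    (h3 : ∑ i ∈ T, ‖a i‖ ^ 2 / Real.sqrt (1 + (g i 0) ^ 2 + h ^ 2 * (g i 1) ^ 2) ≤ X) :
    ∃ (k : ℕ) (c a b g : Fin k → E2),
      (∀ i, a i ≠ 0 ∧ ‖b i‖ = ‖a i‖ ∧ inner ℝ (a i) (b i) = 0) ∧
      S ⊆ ⋃ i, {z : ℝ × E2 | ∃ x ∈ Set.Icc (0 : ℝ) 1, ∃ y ∈ Set.Icc (0 : ℝ) 1,
          z.2 = c i + x • a i + y • b i + z.1 • g i} ∧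
      ∑ i, ‖a i‖ ^ 2 / Real.sqrt (1 + (g i 0) ^ 2 + h ^ 2 * (g i 1) ^ 2) ≤ X := by
  set e := T.equivFin.symm with he
  refine ⟨T.card, fun i => c (e i), fun i => a (e i), fun i => b (e i), fun i => g (e i),
    fun i => h1 _ (e i).2, ?_, ?_⟩
  · intro z hz
    obtain ⟨i, hi, hx⟩ := h2 z hz
    rw [Set.mem_iUnion]
    refine ⟨e.symm ⟨i, hi⟩, ?_⟩
    simpa using hx
  · have : ∑ i, ‖a (e i)‖ ^ 2 / Real.sqrt (1 + (g (e i) 0) ^ 2 + h ^ 2 * (g (e i) 1) ^ 2)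
        = ∑ i ∈ T, ‖a i‖ ^ 2 / Real.sqrt (1 + (g i 0) ^ 2 + h ^ 2 * (g i 1) ^ 2) := by
      rw [Equiv.sum_comp e (fun i : T => ‖a i‖ ^ 2 / Real.sqrt (1 + (g i 0) ^ 2 + h ^ 2 * (g i 1) ^ 2))]
      exact Finset.sum_coe_sort T
        (fun i => ‖a i‖ ^ 2 / Real.sqrt (1 + (g i 0) ^ 2 + h ^ 2 * (g i 1) ^ 2))
    rw [this]
    exact h3

theorem exists_kappa (C A ε : ℝ) (hε : 0 < ε) :
    ∃ κ : ℝ, 0 < κ ∧ κ ≤ 1 ∧
      ((1 + 2 * (2 * C + 2) * κ) ^ 2 * (1 + 2 * κ) ^ 2 - 1) * (A + 1) ≤ ε / 2 := by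
  have hc : Continuous fun κ : ℝ =>
      ((1 + 2 * (2 * C + 2) * κ) ^ 2 * (1 + 2 * κ) ^ 2 - 1) * (A + 1) := by fun_prop
  have h0 : (fun κ : ℝ => ((1 + 2 * (2 * C + 2) * κ) ^ 2 * (1 + 2 * κ) ^ 2 - 1) * (A + 1)) 0
      < ε / 2 := by
    simp only [mul_zero, add_zero, one_pow, mul_one, sub_self, zero_mul]
    positivity
  have hev := hc.continuousAt.eventually_lt_const h0
  obtain ⟨δ, hδ, hball⟩ := Metric.eventually_nhds_iff.mp hev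
  refine ⟨min (δ / 2) 1, by positivity, min_le_right _ _, ?_⟩
  apply le_of_lt
  apply hball
  rw [Real.dist_eq, sub_zero, abs_of_pos (by positivity)]
  have := min_le_left (δ / 2) 1
  linarith

set_option maxHeartbeats 4000000 in
theorem main
    (D : Set E2) (hD : IsCompact D) (V : E2 → E2) (U : Set E2)
    (hU : IsOpen U) (hDU : D ⊆ U) (hV : ContDiffOn ℝ 1 V U) (L h : ℝ) (hL : 0 < L) (hh : 0 < h)
    (htr : ∀ p ∈ D, LinearMap.trace ℝ _ (fderiv ℝ V p).toLinearMap = 0)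
    (hdet : ∀ p ∈ D, -(L ^ 2)⁻¹ < LinearMap.det (fderiv ℝ V p).toLinearMap ∧
      LinearMap.det (fderiv ℝ V p).toLinearMap ≤ 0)
    (ε : ℝ) (hε : 0 < ε) :
    ∃ (k : ℕ) (c a b g : Fin k → E2),
      (∀ i, a i ≠ 0 ∧ ‖b i‖ = ‖a i‖ ∧ inner ℝ (a i) (b i) = 0) ∧
      {z : ℝ × E2 | ∃ p ∈ D, abs z.1 ≤ L ∧ z.2 = p + z.1 • V p} ⊆
        ⋃ i, {z : ℝ × E2 | ∃ x ∈ Set.Icc (0 : ℝ) 1, ∃ y ∈ Set.Icc (0 : ℝ) 1,
          z.2 = c i + x • a i + y • b i + z.1 • g i} ∧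
      ∑ i, ‖a i‖ ^ 2 / Real.sqrt (1 + (g i 0) ^ 2 + h ^ 2 * (g i 1) ^ 2) ≤
        (∫ p in D, 1 / Real.sqrt (1 + (V p 0) ^ 2 + h ^ 2 * (V p 1) ^ 2)) + ε := by
  obtain ⟨BM, c₀, hBM0, hc₀, hBM, hc₀'⟩ :=
    exists_consts D U hD hU hDU V hV L (fun p hp => (hdet p hp).1) hL
  set B := L * BM with hB
  have hB0 : 0 ≤ B := by positivity
  set C := (1 + B) / c₀ with hC
  have hC0 : 0 < C := by positivity
  set A := volume.real D with hA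
  have hA0 : 0 ≤ A := measureReal_nonneg
  have hDtop : volume D ≠ ∞ := hD.measure_lt_top.ne
  have hDm : MeasurableSet D := hD.measurableSet
  set f : E2 → ℝ := fun q => J h (V q) with hf
  have hfc : ContinuousOn f D := (J_continuous h).comp_continuousOn (hV.continuousOn.mono hDU)
  have hfint : IntegrableOn f D volume := hfc.integrableOn_compact hD
  set I := ∫ q in D, f q with hI
  have hI0 : 0 ≤ I := setIntegral_nonneg hDm (fun q _ => (J_pos h _).le)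
  have hIA : I ≤ A := by
    have h1 : I ≤ ∫ _ in D, (1 : ℝ) :=
      setIntegral_mono_on hfint (integrableOn_const hDtop) hDm (fun q _ => J_le_one h _)
    rwa [setIntegral_const, smul_eq_mul, mul_one] at h1
  obtain ⟨κ, hκ0, hκ1, hκθ⟩ := exists_kappa C A ε hε
  set θ := (1 + 2 * (2 * C + 2) * κ) ^ 2 * (1 + 2 * κ) ^ 2 with hθ
  set ε₁ := min (ε / 8) (1 / 2) with hε₁
  have hε₁0 : 0 < ε₁ := by positivity
  set ω₃ := ε₁ / (A + 1) with hω₃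
  have hω₃0 : 0 < ω₃ := by positivity
  have hω₃A : ω₃ * A ≤ ε₁ := by
    rw [hω₃, div_mul_eq_mul_div, div_le_iff₀ (by positivity)]
    nlinarith
  have hω₃1 : ω₃ ≤ 1 := by
    rw [hω₃, div_le_one (by positivity)]
    have := min_le_right (ε / 8) (1 / 2)
    linarith
  set η := κ ^ 2 / (4 * L) with hη
  have hη0 : 0 < η := by positivity
  obtain ⟨δD, hδD, hdiff⟩ := uniform_diff D U hD hU hDU V hV η hη0
  set 𝔟₀ : OrthonormalBasis (Fin 2) ℝ E2 := EuclideanSpace.basisFun (Fin 2) ℝ with h𝔟₀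
  obtain ⟨r₁, hr₁, hriem⟩ := riemann_upper 𝔟₀ 0 D hD (fun q => f q + ω₃)
    (hfc.add continuousOn_const) (fun q => add_nonneg (J_pos h _).le hω₃0.le) 2
    (fun q => by have := J_le_one h (V q); simp only [hf]; linarith) ε₁ hε₁0
  set r := min r₁ (min (δD / 4) (ω₃ / ((1 + h) * BM * (2 * C + 4) + 1))) with hr
  have hden : 0 < (1 + h) * BM * (2 * C + 4) + 1 := by positivity
  have hr0 : 0 < r := by positivity
  have hrr₁ : r ≤ r₁ := min_le_left _ _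
  have hrδ : 4 * r ≤ δD := by
    have : r ≤ δD / 4 := (min_le_right _ _).trans (min_le_left _ _)
    linarith
  have hrω : (1 + h) * BM * (2 * C + 4) * r ≤ ω₃ := by
    have h1 : r ≤ ω₃ / ((1 + h) * BM * (2 * C + 4) + 1) :=
      (min_le_right _ _).trans (min_le_right _ _)
    rw [le_div_iff₀ hden] at h1
    nlinarith
  set ℓ := κ * r with hℓ
  have hℓ0 : 0 < ℓ := by positivity
  have hℓr : ℓ ≤ r := by rw [hℓ]; nlinarith
  set σ := κ * ℓ with hσ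
  have hσ0 : 0 < σ := by positivity
  -- the grid cells meeting D
  have hGfin : {m : ℤ × ℤ | ∃ p ∈ D, p ∈ Tile 𝔟₀ 0 r m}.Finite := by
    apply (latPt_near_finite 𝔟₀ 0 r hr0 D hD.isBounded (2 * r)).subset
    rintro m ⟨p, hp, hpm⟩
    refine ⟨p, hp, ?_⟩
    have := tile_norm_sub_le 𝔟₀ 0 r m p hpm
    rw [norm_sub_rev]
    exact this
  set G := hGfin.toFinset with hG
  have hGmem : ∀ m, m ∈ G ↔ ∃ p ∈ D, p ∈ Tile 𝔟₀ 0 r m := fun m => by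
    rw [hG, Set.Finite.mem_toFinset]; rfl
  have hdata : ∀ m : ℤ × ℤ, ∃ (p₀ : E2) (𝔟 : OrthonormalBasis (Fin 2) ℝ E2) (β γ : ℝ), m ∈ G →
      (p₀ ∈ D ∧ p₀ ∈ Tile 𝔟₀ 0 r m ∧ fderiv ℝ V p₀ (𝔟 0) = γ • 𝔟 1 ∧
        fderiv ℝ V p₀ (𝔟 1) = β • 𝔟 0 ∧
        LinearMap.det (fderiv ℝ V p₀).toLinearMap = -(β * γ)) := by
    intro m
    by_cases hm : m ∈ G
    · obtain ⟨p, hp, hpm⟩ := (hGmem m).mp hm
      obtain ⟨𝔟, β, γ, h1, h2, h3⟩ := exists_frame (fderiv ℝ V p) (htr p hp)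
      exact ⟨p, 𝔟, β, γ, fun _ => ⟨hp, hpm, h1, h2, h3⟩⟩
    · exact ⟨0, 𝔟₀, 0, 0, fun h => absurd h hm⟩
  choose pt fr β γ hdata using hdata
  have hFfin : ∀ m, {jk : ℤ × ℤ | ∃ p ∈ D ∩ Tile 𝔟₀ 0 r m,
      ‖pt m + latPt (fr m) ℓ jk - p‖ ≤ 2 * C * ℓ}.Finite :=
    fun m => latPt_near_finite (fr m) (pt m) ℓ hℓ0 _ (hD.isBounded.subset Set.inter_subset_left) _
  set F := fun m => (hFfin m).toFinset with hF
  have hFmem : ∀ m jk, jk ∈ F m ↔ ∃ p ∈ D ∩ Tile 𝔟₀ 0 r m,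
      ‖pt m + latPt (fr m) ℓ jk - p‖ ≤ 2 * C * ℓ := fun m jk => by
    simp only [hF, Set.Finite.mem_toFinset]; rfl
  have hℓσ : 0 < ℓ + 2 * σ := by positivity
  apply reindex (G.sigma F)
    (fun x => pt x.1 + latPt (fr x.1) ℓ x.2 - σ • fr x.1 0 - σ • fr x.1 1)
    (fun x => (ℓ + 2 * σ) • fr x.1 0) (fun x => (ℓ + 2 * σ) • fr x.1 1)
    (fun x => V (pt x.1) + fderiv ℝ V (pt x.1) (latPt (fr x.1) ℓ x.2))
  · -- squares
    intro x _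
    refine ⟨?_, ?_, ?_⟩
    · apply smul_ne_zero hℓσ.ne'
      intro h0
      have := (fr x.1).norm_eq_one 0
      rw [h0, norm_zero] at this
      exact zero_ne_one this
    · simp [norm_smul, (fr x.1).norm_eq_one]
    · rw [inner_smul_left, inner_smul_right, (fr x.1).inner_eq_zero (by decide)]
      simp
  · -- covering
    rintro ⟨s, z⟩ ⟨p, hp, hs, hz⟩
    simp only at hs hz
    set m : ℤ × ℤ := (⌊⟪𝔟₀ 0, p - 0⟫ / r⌋, ⌊⟪𝔟₀ 1, p - 0⟫ / r⌋) with hm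
    have hpm : p ∈ Tile 𝔟₀ 0 r m := tile_mem 𝔟₀ 0 r hr0 p
    have hmG : m ∈ G := (hGmem m).mpr ⟨p, hp, hpm⟩
    obtain ⟨hptD, hptT, hMa, hMb, hdetm⟩ := hdata m hmG
    have hβγ0 : 0 ≤ β m * γ m := by
      have := (hdet _ hptD).2
      rw [hdetm] at this
      linarith
    have hβγ1 : c₀ ≤ 1 - L ^ 2 * (β m * γ m) := by
      have := hc₀' _ hptD
      rw [hdetm] at this
      linarith
    have hβB : L * |β m| ≤ B := by
      have h1 : |β m| = ‖fderiv ℝ V (pt m) (fr m 1)‖ := by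
        rw [hMb, norm_smul, (fr m).norm_eq_one, mul_one, Real.norm_eq_abs]
      have h2 : ‖fderiv ℝ V (pt m) (fr m 1)‖ ≤ BM := by
        have := (fderiv ℝ V (pt m)).le_opNorm (fr m 1)
        rw [(fr m).norm_eq_one, mul_one] at this
        exact this.trans (hBM _ hptD)
      rw [h1, hB]
      exact mul_le_mul_of_nonneg_left h2 hL.le
    have hγB : L * |γ m| ≤ B := by
      have h1 : |γ m| = ‖fderiv ℝ V (pt m) (fr m 0)‖ := by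
        rw [hMa, norm_smul, (fr m).norm_eq_one, mul_one, Real.norm_eq_abs]
      have h2 : ‖fderiv ℝ V (pt m) (fr m 0)‖ ≤ BM := by
        have := (fderiv ℝ V (pt m)).le_opNorm (fr m 0)
        rw [(fr m).norm_eq_one, mul_one] at this
        exact this.trans (hBM _ hptD)
      rw [h1, hB]
      exact mul_le_mul_of_nonneg_left h2 hL.le
    have hdist : dist p (pt m) ≤ 4 * r := tile_dist_le 𝔟₀ 0 r m p (pt m) hpm hptT
    have herr : ‖s • (V p - V (pt m) - fderiv ℝ V (pt m) (p - pt m))‖ ≤ σ := by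
      have h1 := hdiff (pt m) hptD p (hdist.trans hrδ)
      rw [norm_smul, Real.norm_eq_abs]
      rw [dist_eq_norm] at hdist
      calc |s| * ‖V p - V (pt m) - fderiv ℝ V (pt m) (p - pt m)‖
          ≤ L * (η * (4 * r)) := by
            apply mul_le_mul hs (h1.trans (mul_le_mul_of_nonneg_left hdist hη0.le))
              (norm_nonneg _) hL.le
        _ = σ := by rw [hη, hσ, hℓ]; field_simp
    obtain ⟨j, k, hjk, x, hx, y, hy, hxy⟩ := patch_cover (fderiv ℝ V (pt m)) (fr m) (β m) (γ m)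
      hMa hMb L c₀ B ℓ σ hL hc₀ hβγ0 hβγ1 hβB hγB hℓ0 hσ0.le (pt m) (V (pt m)) p (V p) s hs herr
    refine ⟨⟨m, (j, k)⟩, ?_, x, hx, y, hy, ?_⟩
    · rw [Finset.mem_sigma]
      exact ⟨hmG, (hFmem m (j, k)).mpr ⟨p, ⟨hp, hpm⟩, hjk⟩⟩
    · simp only
      rw [hz]
      exact hxy
  · -- cost
    rw [Finset.sum_sigma]
    have hinner : ∀ m ∈ G, ∑ jk ∈ F m, ‖(ℓ + 2 * σ) • fr m 0‖ ^ 2 /
        Real.sqrt (1 + ((V (pt m) + fderiv ℝ V (pt m) (latPt (fr m) ℓ jk)) 0) ^ 2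
          + h ^ 2 * ((V (pt m) + fderiv ℝ V (pt m) (latPt (fr m) ℓ jk)) 1) ^ 2)
        ≤ θ * (r ^ 2 * (f (pt m) + ω₃)) := by
      intro m hmG
      obtain ⟨hptD, hptT, hMa, hMb, hdetm⟩ := hdata m hmG
      have hterm : ∀ jk ∈ F m, ‖(ℓ + 2 * σ) • fr m 0‖ ^ 2 /
          Real.sqrt (1 + ((V (pt m) + fderiv ℝ V (pt m) (latPt (fr m) ℓ jk)) 0) ^ 2
            + h ^ 2 * ((V (pt m) + fderiv ℝ V (pt m) (latPt (fr m) ℓ jk)) 1) ^ 2)
          ≤ (ℓ + 2 * σ) ^ 2 * (f (pt m) + ω₃) := by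
        intro jk hjk
        obtain ⟨p, ⟨hp, hpm⟩, hpjk⟩ := (hFmem m jk).mp hjk
        have hn : ‖(ℓ + 2 * σ) • fr m 0‖ = ℓ + 2 * σ := by
          rw [norm_smul, (fr m).norm_eq_one, mul_one, Real.norm_eq_abs, abs_of_pos hℓσ]
        rw [hn, div_eq_mul_one_div]
        apply mul_le_mul_of_nonneg_left _ (by positivity)
        have h1 := J_lip h hh (V (pt m) + fderiv ℝ V (pt m) (latPt (fr m) ℓ jk)) (V (pt m))
        have h2 : ‖latPt (fr m) ℓ jk‖ ≤ (2 * C + 4) * r := by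
          have h3 : latPt (fr m) ℓ jk = (pt m + latPt (fr m) ℓ jk - p) + (p - pt m) := by abel
          have h4 : ‖p - pt m‖ ≤ 4 * r := by
            rw [← dist_eq_norm]; exact tile_dist_le 𝔟₀ 0 r m p (pt m) hpm hptT
          calc ‖latPt (fr m) ℓ jk‖ = ‖(pt m + latPt (fr m) ℓ jk - p) + (p - pt m)‖ := by rw [← h3]
            _ ≤ ‖pt m + latPt (fr m) ℓ jk - p‖ + ‖p - pt m‖ := norm_add_le _ _
            _ ≤ 2 * C * ℓ + 4 * r := add_le_add hpjk h4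
            _ ≤ (2 * C + 4) * r := by nlinarith
        have h5 : ‖V (pt m) + fderiv ℝ V (pt m) (latPt (fr m) ℓ jk) - V (pt m)‖
            ≤ BM * ((2 * C + 4) * r) := by
          rw [add_sub_cancel_left]
          calc ‖fderiv ℝ V (pt m) (latPt (fr m) ℓ jk)‖
              ≤ ‖fderiv ℝ V (pt m)‖ * ‖latPt (fr m) ℓ jk‖ := (fderiv ℝ V (pt m)).le_opNorm _
            _ ≤ BM * ((2 * C + 4) * r) := mul_le_mul (hBM _ hptD) h2 (norm_nonneg _) hBM0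
        have h6 : (1 + h) * ‖V (pt m) + fderiv ℝ V (pt m) (latPt (fr m) ℓ jk) - V (pt m)‖ ≤ ω₃ := by
          calc (1 + h) * ‖V (pt m) + fderiv ℝ V (pt m) (latPt (fr m) ℓ jk) - V (pt m)‖
              ≤ (1 + h) * (BM * ((2 * C + 4) * r)) := mul_le_mul_of_nonneg_left h5 (by positivity)
            _ = (1 + h) * BM * (2 * C + 4) * r := by ring
            _ ≤ ω₃ := hrω
        have h7 : J h (V (pt m) + fderiv ℝ V (pt m) (latPt (fr m) ℓ jk)) ≤ f (pt m) + ω₃ := by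
          simp only [hf]; linarith
        exact h7
      -- packing
      set ρ' := (2 * C + 2) * ℓ with hρ'
      set R := r + 2 * ρ' with hR
      have hρ'0 : 0 < ρ' := by positivity
      have hR0 : 0 < R := by positivity
      have hpack : ((F m).card : ℝ) * ℓ ^ 2 ≤ R ^ 2 := by
        apply tile_packing (fr m) 𝔟₀ (pt m)
          ((r * m.1 - ρ') • 𝔟₀ 0 + (r * m.2 - ρ') • 𝔟₀ 1) ℓ R hℓ0 hR0.le (F m) (0, 0)
        intro jk hjk q hq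
        obtain ⟨p, ⟨hp, hpm⟩, hpjk⟩ := (hFmem m jk).mp hjk
        have h1 := tile_norm_sub_le (fr m) (pt m) ℓ jk q hq
        have h2 : ‖q - p‖ ≤ ρ' := by
          have h3 : q - p = (q - (pt m + latPt (fr m) ℓ jk)) + (pt m + latPt (fr m) ℓ jk - p) := by
            abel
          calc ‖q - p‖ = ‖(q - (pt m + latPt (fr m) ℓ jk)) + (pt m + latPt (fr m) ℓ jk - p)‖ := by
                rw [← h3]
            _ ≤ ‖q - (pt m + latPt (fr m) ℓ jk)‖ + ‖pt m + latPt (fr m) ℓ jk - p‖ :=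
                norm_add_le _ _
            _ ≤ 2 * ℓ + 2 * C * ℓ := add_le_add h1 hpjk
            _ = ρ' := by rw [hρ']; ring
        obtain ⟨⟨a1, a2⟩, a3, a4⟩ := hpm
        have h01 : ⟪𝔟₀ 0, 𝔟₀ 1⟫ = 0 := 𝔟₀.inner_eq_zero (by decide)
        have h10 : ⟪𝔟₀ 1, 𝔟₀ 0⟫ = 0 := 𝔟₀.inner_eq_zero (by decide)
        have h00 : ⟪𝔟₀ 0, 𝔟₀ 0⟫ = 1 := by
          rw [real_inner_self_eq_norm_sq, 𝔟₀.norm_eq_one]; norm_num
        have h11 : ⟪𝔟₀ 1, 𝔟₀ 1⟫ = 1 := by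
          rw [real_inner_self_eq_norm_sq, 𝔟₀.norm_eq_one]; norm_num
        have e0 : ⟪𝔟₀ 0, q - ((r * m.1 - ρ') • 𝔟₀ 0 + (r * m.2 - ρ') • 𝔟₀ 1)⟫
            = ⟪𝔟₀ 0, q - p⟫ + ⟪𝔟₀ 0, p - 0⟫ - (r * m.1 - ρ') := by
          simp only [inner_sub_right, inner_add_right, inner_smul_right, h00, h01, inner_zero_right]
          ring
        have e1 : ⟪𝔟₀ 1, q - ((r * m.1 - ρ') • 𝔟₀ 0 + (r * m.2 - ρ') • 𝔟₀ 1)⟫
            = ⟪𝔟₀ 1, q - p⟫ + ⟪𝔟₀ 1, p - 0⟫ - (r * m.2 - ρ') := by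
          simp only [inner_sub_right, inner_add_right, inner_smul_right, h10, h11, inner_zero_right]
          ring
        have b0 := abs_le.mp ((onb_abs_inner_le 𝔟₀ 0 (q - p)).trans h2)
        have b1 := abs_le.mp ((onb_abs_inner_le 𝔟₀ 1 (q - p)).trans h2)
        refine ⟨⟨?_, ?_⟩, ?_, ?_⟩
        · rw [e0]; push_cast; linarith [b0.1]
        · rw [e0]; push_cast; rw [hR]; linarith [b0.2]
        · rw [e1]; push_cast; linarith [b1.1]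
        · rw [e1]; push_cast; rw [hR]; linarith [b1.2]
      have hfpos : 0 ≤ f (pt m) + ω₃ := add_nonneg (J_pos h _).le hω₃0.le
      calc ∑ jk ∈ F m, ‖(ℓ + 2 * σ) • fr m 0‖ ^ 2 /
          Real.sqrt (1 + ((V (pt m) + fderiv ℝ V (pt m) (latPt (fr m) ℓ jk)) 0) ^ 2
            + h ^ 2 * ((V (pt m) + fderiv ℝ V (pt m) (latPt (fr m) ℓ jk)) 1) ^ 2)
          ≤ ∑ _jk ∈ F m, (ℓ + 2 * σ) ^ 2 * (f (pt m) + ω₃) := Finset.sum_le_sum hterm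
        _ = ((F m).card : ℝ) * ℓ ^ 2 * ((1 + 2 * κ) ^ 2 * (f (pt m) + ω₃)) := by
            rw [Finset.sum_const, nsmul_eq_mul, hσ]; ring
        _ ≤ R ^ 2 * ((1 + 2 * κ) ^ 2 * (f (pt m) + ω₃)) :=
            mul_le_mul_of_nonneg_right hpack (by positivity)
        _ = θ * (r ^ 2 * (f (pt m) + ω₃)) := by
            rw [hθ, hR, hρ', hℓ]; ring
    have hθ1 : 1 ≤ θ := by
      rw [hθ]
      have h1 : 1 ≤ (1 + 2 * (2 * C + 2) * κ) ^ 2 := by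
        apply one_le_pow₀
        have : 0 ≤ 2 * (2 * C + 2) * κ := by positivity
        linarith
      have h2 : 1 ≤ (1 + 2 * κ) ^ 2 := by
        apply one_le_pow₀
        linarith
      nlinarith
    have hsum := hriem r hr0 hrr₁ G pt (fun m hm => ⟨(hdata m hm).1, (hdata m hm).2.1⟩)
    have hint : ∫ q in D, (f q + ω₃) = I + ω₃ * A := by
      rw [integral_add hfint (integrableOn_const hDtop), setIntegral_const, smul_eq_mul, mul_comm A]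
    rw [hint] at hsum
    have hε₁a : ε₁ ≤ ε / 8 := min_le_left _ _
    have hε₁b : ε₁ ≤ 1 / 2 := min_le_right _ _
    calc _ ≤ ∑ m ∈ G, θ * (r ^ 2 * (f (pt m) + ω₃)) := Finset.sum_le_sum hinner
      _ = θ * ∑ m ∈ G, r ^ 2 * (f (pt m) + ω₃) := by rw [Finset.mul_sum]
      _ ≤ θ * (I + ω₃ * A + ε₁) := mul_le_mul_of_nonneg_left hsum (by linarith)
      _ = (I + ω₃ * A + ε₁) + (θ - 1) * (I + ω₃ * A + ε₁) := by ring
      _ ≤ (I + ω₃ * A + ε₁) + (θ - 1) * (A + 1) := by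
          have : I + ω₃ * A + ε₁ ≤ A + 1 := by linarith
          have := mul_le_mul_of_nonneg_left this (by linarith : 0 ≤ θ - 1)
          linarith
      _ ≤ I + ε := by linarith

end Crest.Agent.S0326Aux
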